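import Vale.Agent.P096.Semi

namespace Vale.Agent.Results.P096.Semifinite

open Vale.Agent.P096

universe u

theorem result : ∀ ε : ℝ, 0 < ε → ∃ δ : ℝ, 0 < δ ∧ ∀ (H : Type u) [NormedAddCommGroup H]
    [InnerProductSpace ℂ H] [CompleteSpace H] (M N : VonNeumannAlgebra H),
      IsSemifiniteFactor M → HasSeparableOrbit M → kkDist M N < δ →
      ∃ u ∈ unitary (H →L[ℂ] H), ‖u - 1‖ < ε ∧
        (fun x => u * x * star u) '' (M : Set (H →L[ℂ] H)) = N := fun ε hε => by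
  obtain ⟨C, c1, hC⟩ := kk_semi.{u}
  obtain ⟨δ, d0, h⟩ := KK.eps.{u} c1 hε
  exact ⟨δ, d0, fun H _ _ _ M N h1 h2 d => h H M N (hC H M h1 h2) d⟩

end Vale.Agent.Results.P096.Semifinite
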